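import Vale.Agent.Lib.P154Anti.Cert.D11.Table0
import Vale.Agent.Lib.P154Anti.Cert.D11.Masses

namespace Vale.Agent.Lib.P154Anti.Cert.D11

open Vale.Agent.Lib.P154Anti

theorem L20 : lvlOK3 cfg par tblI0 tblE0 vE vc Q20 17591046897127 Q21 = true := by decide +kernel

theorem L21 : lvlOK3 cfg par tblI0 tblE0 vE vc Q21 17591035995521 Q22 = true := by decide +kernel

theorem L22 : lvlOK3 cfg par tblI0 tblE0 vE vc Q22 17590669482416 Q23 = true := by decide +kernel

theorem L23 : lvlOK3 cfg par tblI0 tblE0 vE vc Q23 17590644730374 Q24 = true := by decide +kernel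

theorem L24 : lvlOK3 cfg par tblI0 tblE0 vE vc Q24 17590757810560 Q25 = true := by decide +kernel

theorem L25 : lvlOK3 cfg par tblI0 tblE0 vE vc Q25 17590824622376 Q26 = true := by decide +kernel

theorem L26 : lvlOK3 cfg par tblI0 tblE0 vE vc Q26 17590902635618 Q27 = true := by decide +kernel

theorem L27 : lvlOK3 cfg par tblI0 tblE0 vE vc Q27 17590880175465 Q28 = true := by decide +kernel

theorem L28 : lvlOK3 cfg par tblI0 tblE0 vE vc Q28 17590922180971 Q29 = true := by decide +kernel

theorem L29 : lvlOK3 cfg par tblI0 tblE0 vE vc Q29 17590792439723 Q30 = true := by decide +kernel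

end Vale.Agent.Lib.P154Anti.Cert.D11
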